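import Vale.Agent.P199.Basic

namespace Vale.Agent.Results.P199.ConjClass

open Vale.Agent.P199

theorem result (D : Type*) [DivisionRing D] (a : D) (ha : a ∉ Subring.center D) :
    LocallyFinite D ↔
      ∀ T : Finset D, (∀ t ∈ T, ∃ x : D, x ≠ 0 ∧ t = x * a * x⁻¹) →
        FiniteDimensional (Subring.center D) (Algebra.adjoin (Subring.center D) (T : Set D)) := by
  classical
  constructor
  · intro h T _
    exact locallyFinite_iff.mp h T
  · intro h
    rw [locallyFinite_iff]
    set F := Subring.center D with hF
    set C : Set D := {t | ∃ x : D, x ≠ 0 ∧ t = x * a * x⁻¹} with hC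
    set R : Subalgebra F D := Algebra.adjoin F C with hR
    have hfin : ∀ T : Finset D, (T : Set D) ⊆ C → FiniteDimensional F (Algebra.adjoin F (T : Set D)) :=
      fun T hT => h T (fun t ht => hT ht)
    have hinv : ∀ r ∈ R, r⁻¹ ∈ R := by
      intro r hr
      obtain ⟨T, hT, hrT⟩ := exists_finset_of_mem_adjoin hr
      have := hfin T hT
      exact Algebra.adjoin_mono hT (inv_mem_of_finiteDimensional _ hrT)
    have hconj : ∀ d : D, d ≠ 0 → ∀ r ∈ R, d * r * d⁻¹ ∈ R := by
      intro d hd r hr
      induction hr using Algebra.adjoin_induction with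
      | mem x hx =>
        obtain ⟨y, hy, rfl⟩ := hx
        refine Algebra.subset_adjoin ⟨d * y, mul_ne_zero hd hy, ?_⟩
        rw [mul_inv_rev]
        simp only [mul_assoc]
      | algebraMap r =>
        have : d * (algebraMap F D r) * d⁻¹ = algebraMap F D r := by
          rw [← Algebra.commutes, mul_assoc, mul_inv_cancel₀ hd, mul_one]
        rw [this]
        exact Subalgebra.algebraMap_mem _ r
      | add x y _ _ hx hy =>
        have : d * (x + y) * d⁻¹ = d * x * d⁻¹ + d * y * d⁻¹ := by
          rw [mul_add, add_mul]
        rw [this]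
        exact Subalgebra.add_mem _ hx hy
      | mul x y _ _ hx hy =>
        have : d * (x * y) * d⁻¹ = (d * x * d⁻¹) * (d * y * d⁻¹) := by
          simp only [mul_assoc]
          rw [inv_mul_cancel_left₀ hd]
        rw [this]
        exact Subalgebra.mul_mem _ hx hy
    have haR : a ∈ R := Algebra.subset_adjoin ⟨1, one_ne_zero, by simp⟩
    have htop : R = ⊤ := by
      rcases cartan_brauer_hua R hinv hconj with h1 | h1
      · exact h1
      · exact absurd (Subring.mem_center_iff.mpr (fun d => h1 a haR d)) ha
    intro S
    have hS : ∀ s ∈ S, ∃ T : Finset D, (T : Set D) ⊆ C ∧ s ∈ Algebra.adjoin F (T : Set D) := by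
      intro s _
      have : s ∈ R := by rw [htop]; exact Algebra.mem_top
      exact exists_finset_of_mem_adjoin this
    choose! Tf hTf1 hTf2 using hS
    set U : Finset D := S.biUnion Tf with hU
    have hUC : (U : Set D) ⊆ C := by
      intro u hu
      simp only [hU, Finset.coe_biUnion, Set.mem_iUnion] at hu
      obtain ⟨s, hs, hus⟩ := hu
      exact hTf1 s hs hus
    have hUfin := hfin U hUC
    have hle : Algebra.adjoin F (S : Set D) ≤ Algebra.adjoin F (U : Set D) := by
      refine Algebra.adjoin_le ?_
      intro s hs
      refine Algebra.adjoin_mono ?_ (hTf2 s hs)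
      intro t ht
      simp only [hU, Finset.coe_biUnion, Set.mem_iUnion]
      exact ⟨s, hs, ht⟩
    rw [← Subalgebra.finiteDimensional_toSubmodule] at hUfin ⊢
    exact Submodule.finiteDimensional_of_le (Subalgebra.toSubmodule.monotone hle)

end Vale.Agent.Results.P199.ConjClass
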