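import Vale.Agent.P199.NormalElt

namespace Vale.Agent.Results.P199.NormalBrauerTrivial

open Vale.Agent.P199 Polynomial

universe u

theorem result (F : Type u) [Field F]
    (hnormal : ∀ (K : Type u) [Field K] [Algebra F K] [FiniteDimensional F K], Normal F K)
    (hcomm : ∀ (E : Type u) [DivisionRing E] [Algebra F E] [FiniteDimensional F E],
      ∀ x y : E, x * y = y * x)
    (D : Type u) [DivisionRing D] [Algebra F D] [Algebra.IsAlgebraic F D] :
    (∀ x y : D, x * y = y * x) ∧ LocallyFinite D := by
  have main : ∀ x y : D, x * y = y * x := by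
    intro a y
    by_contra hy
    have ha : IsIntegral F a := Algebra.IsIntegral.isIntegral a
    have : Fact (Irreducible (minpoly F a)) := ⟨minpoly.irreducible ha⟩
    have hfd : FiniteDimensional F (AdjoinRoot (minpoly F a)) :=
      (minpoly.monic ha).finite_adjoinRoot
    have hN : Normal F (AdjoinRoot (minpoly F a)) := hnormal _
    have hsplit : ((minpoly F a).map (algebraMap F (AdjoinRoot (minpoly F a)))).Splits := by
      have h1 := hN.splits (AdjoinRoot.root (minpoly F a))
      rw [AdjoinRoot.minpoly_root (minpoly.ne_zero ha), (minpoly.monic ha).leadingCoeff, inv_one,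
        map_one, mul_one] at h1
      exact h1
    obtain ⟨x, hx, hfin⟩ := exists_noncomm_fd a y hy hsplit
    let _ : DivisionRing (Algebra.adjoin F {a, x}) :=
      divisionRingOfFiniteDimensional F (Algebra.adjoin F {a, x})
    have h2 := hcomm (Algebra.adjoin F {a, x})
      ⟨a, Algebra.subset_adjoin (by simp)⟩ ⟨x, Algebra.subset_adjoin (by simp)⟩
    exact hx (congrArg Subtype.val h2)
  refine ⟨main, ?_⟩
  rw [locallyFinite_iff]
  intro S
  have htop : ∀ z : D, z ∈ Subring.center D := fun z => Subring.mem_center_iff.mpr (fun g => main g z)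
  have hfin : Module.Finite (Subring.center D) D := by
    refine ⟨⟨{1}, ?_⟩⟩
    rw [eq_top_iff]
    intro z _
    have : z = (⟨z, htop z⟩ : Subring.center D) • (1 : D) := by
      rw [Subring.smul_def]; simp
    rw [this]
    exact Submodule.smul_mem _ _ (Submodule.subset_span (by simp))
  infer_instance

end Vale.Agent.Results.P199.NormalBrauerTrivial
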