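import Vale.Agent.P199.Descent
import Vale.Agent.P199.Pair

namespace Vale.Agent.Results.P199.Z_Formulations

open Vale.Agent.P199 Polynomial

universe u

theorem result :
    (∀ (D : Type u) [DivisionRing D], Algebra.IsAlgebraic (Subring.center D) D → LocallyFinite D) ↔
      (∀ (k D : Type u) [Field k] [DivisionRing D] [Algebra k D],
        Algebra.IsAlgebraic k D → Algebra.FiniteType k D → FiniteDimensional k D) := by
  constructor
  · intro H k D _ _ _ halg hft
    have hcen : Algebra.IsAlgebraic (Subring.center D) D := by
      refine ⟨fun a => ?_⟩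
      obtain ⟨p, hp0, hp⟩ := halg.isAlgebraic a
      let φ : k →+* Subring.center D :=
        (algebraMap k D).codRestrict (Subring.center D) (fun c => algebraMap_mem_center c)
      refine ⟨p.map φ, (Polynomial.map_ne_zero_iff φ.injective).mpr hp0, ?_⟩
      rw [aeval_def, eval₂_map]
      have : (algebraMap (Subring.center D) D).comp φ = algebraMap k D := by
        ext c; rfl
      rw [this, ← aeval_def, hp]
    have hlf := H D hcen
    obtain ⟨S, hS⟩ := hft.out
    have h1 : FiniteDimensional k (Algebra.adjoin k (S : Set D)) :=
      fd_of_fd_center S (locallyFinite_iff.mp hlf S)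
    rw [hS] at h1
    exact (Subalgebra.topEquiv (R := k) (A := D)).toLinearEquiv.finiteDimensional
  · intro H D _ halg
    rw [locallyFinite_iff]
    intro S
    set F := Subring.center D with hF
    set A := Algebra.adjoin F (S : Set D) with hA
    have hinv : ∀ a ∈ A, a⁻¹ ∈ A := by
      intro a ha
      have hint : IsIntegral F a := Algebra.IsIntegral.isIntegral a
      have := finiteDimensional_adjoin_singleton hint
      have h1 : a⁻¹ ∈ Algebra.adjoin F {a} :=
        inv_mem_of_finiteDimensional _ (Algebra.subset_adjoin rfl)
      exact (Algebra.adjoin_le (by simpa using ha) : Algebra.adjoin F {a} ≤ A) h1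
    let _ : DivisionRing A := DivisionRing.ofIsUnitOrEqZero (fun a => by
      by_cases h0 : a = 0
      · exact Or.inr h0
      · left
        have h0' : (a : D) ≠ 0 := fun h => h0 (Subtype.ext h)
        refine ⟨⟨a, ⟨(a : D)⁻¹, hinv a a.2⟩, Subtype.ext (mul_inv_cancel₀ h0'),
          Subtype.ext (inv_mul_cancel₀ h0')⟩, rfl⟩)
    have halgA : Algebra.IsAlgebraic F A :=
      Algebra.IsAlgebraic.of_injective A.val Subtype.val_injective
    have hftA : Algebra.FiniteType F A :=
      (Subalgebra.fg_iff_finiteType A).mp (Subalgebra.fg_adjoin_finset S)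
    exact H F A halgA hftA

end Vale.Agent.Results.P199.Z_Formulations
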