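import Vale.Agent.Results.P199.CentralSubfield
import Vale.Agent.Results.P199.ConjClass
import Vale.Agent.Results.P199.Z_Formulations
import Vale.Agent.Results.P199.NormalBrauerTrivial

namespace Vale.Agent.Results.P199.A0_Combined

open Vale.Agent.P199

universe u

theorem result :
    (∀ (F : Type u) [Field F],
      (∀ (K : Type u) [Field K] [Algebra F K] [FiniteDimensional F K], Normal F K) →
      (∀ (E : Type u) [DivisionRing E] [Algebra F E] [FiniteDimensional F E],
        ∀ x y : E, x * y = y * x) →
      ∀ (D : Type u) [DivisionRing D] [Algebra F D] [Algebra.IsAlgebraic F D],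
        (∀ x y : D, x * y = y * x) ∧ LocallyFinite D) ∧
    (∀ (D : Type u) [DivisionRing D] (a : D), a ∉ Subring.center D →
      (LocallyFinite D ↔
        ∀ T : Finset D, (∀ t ∈ T, ∃ x : D, x ≠ 0 ∧ t = x * a * x⁻¹) →
          FiniteDimensional (Subring.center D)
            (Algebra.adjoin (Subring.center D) (T : Set D)))) ∧
    (∀ (k D : Type u) [Field k] [DivisionRing D] [Algebra k D] [Algebra.IsAlgebraic k D],
      (LocallyFinite D ↔
        ∀ S : Finset D, FiniteDimensional k (Algebra.adjoin k (S : Set D)))) ∧
    ((∀ (D : Type u) [DivisionRing D], Algebra.IsAlgebraic (Subring.center D) D →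
        LocallyFinite D) ↔
      (∀ (k D : Type u) [Field k] [DivisionRing D] [Algebra k D],
        Algebra.IsAlgebraic k D → Algebra.FiniteType k D → FiniteDimensional k D)) :=
  ⟨fun F _ hn hc D _ _ _ => NormalBrauerTrivial.result F hn hc D,
    fun D _ a ha => ConjClass.result D a ha,
    fun k D _ _ _ _ => CentralSubfield.result k D,
    Z_Formulations.result⟩

end Vale.Agent.Results.P199.A0_Combined
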