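import Vale.Agent.P199.Descent

namespace Vale.Agent.Results.P199.CentralSubfield

open Vale.Agent.P199

theorem result (k D : Type*) [Field k] [DivisionRing D] [Algebra k D] [Algebra.IsAlgebraic k D] :
    LocallyFinite D ↔
      ∀ S : Finset D, FiniteDimensional k (Algebra.adjoin k (S : Set D)) := by
  rw [locallyFinite_iff]
  exact ⟨fun h S => fd_of_fd_center S (h S), fun h S => fd_center_of_fd _ (h S)⟩

end Vale.Agent.Results.P199.CentralSubfield
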